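import Vale.Agent.Lib.P309.Env.KaczSuccess
open MeasureTheory ProbabilityTheory Set Metric
open scoped ENNReal Pointwise
namespace Vale.Agent.Lib.P309.Env
variable {d : ℕ}

lemma contraction_pow_le (hd : 1 ≤ d) {ε : ℝ} (h0 : 0 < ε) {T : ℕ}
    (hT : 2 * d * Real.log (30 / ε ^ 2) ≤ T) :
    (1 - 1 / (2 * (d : ℝ))) ^ T ≤ ε ^ 2 / 30 := by
  have hdp : (0 : ℝ) < d := by exact_mod_cast hd
  have hd1 : (1 : ℝ) ≤ d := by exact_mod_cast hd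
  have hnn : 0 ≤ 1 - 1 / (2 * (d : ℝ)) := by
    rw [sub_nonneg, div_le_one (by positivity)]; linarith
  have h1 : 1 - 1 / (2 * (d : ℝ)) ≤ Real.exp (-(1 / (2 * (d : ℝ)))) := by
    have := Real.add_one_le_exp (-(1 / (2 * (d : ℝ))))
    linarith
  calc (1 - 1 / (2 * (d : ℝ))) ^ T ≤ (Real.exp (-(1 / (2 * (d : ℝ))))) ^ T :=
        pow_le_pow_left₀ hnn h1 T
    _ = Real.exp (-(T / (2 * (d : ℝ)))) := by
        rw [← Real.exp_nat_mul]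
        congr 1
        ring
    _ ≤ Real.exp (-(Real.log (30 / ε ^ 2))) := by
        apply Real.exp_le_exp.2
        apply neg_le_neg
        rw [le_div_iff₀ (by positivity)]
        linarith
    _ = ε ^ 2 / 30 := by
        rw [Real.exp_neg, Real.exp_log (by positivity)]
        field_simp

lemma grid_term_le (hd : 1 ≤ d) {ε : ℝ} (h0 : 0 < ε) {R : ℕ} (hR : 7 * (d : ℝ) ^ 2 / ε ≤ R) :
    (d : ℝ) ^ 2 * (1 + 2 * d) / (2 * (R : ℝ) ^ 2) ≤ ε ^ 2 / 30 := by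
  have hdp : (0 : ℝ) < d := by exact_mod_cast hd
  have hd1 : (1 : ℝ) ≤ d := by exact_mod_cast hd
  have hRp : (0 : ℝ) < R := lt_of_lt_of_le (by positivity) hR
  have h1 : 7 * (d : ℝ) ^ 2 ≤ R * ε := by
    rwa [div_le_iff₀ h0] at hR
  have h2 : (7 * (d : ℝ) ^ 2) ^ 2 ≤ (R * ε) ^ 2 := pow_le_pow_left₀ (by positivity) h1 2
  rw [div_le_div_iff₀ (by positivity) (by norm_num)]
  have h3 : (d : ℝ) ^ 2 * (1 + 2 * d) ≤ 3 * (d : ℝ) ^ 4 := by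
    have : (d : ℝ) ^ 2 ≤ (d : ℝ) ^ 4 := pow_le_pow_right₀ hd1 (by norm_num)
    have : (d : ℝ) ^ 3 ≤ (d : ℝ) ^ 4 := pow_le_pow_right₀ hd1 (by norm_num)
    nlinarith
  nlinarith

lemma grid_card_le (hd : 1 ≤ d) {ε : ℝ} (h0 : 0 < ε) (h1 : ε ≤ 1) {M R : ℕ}
    (hR : (R : ℝ) < 7 * (d : ℝ) ^ 2 / ε + 1)
    (hM : d * Real.logb 2 (17 * (d : ℝ) ^ 2 / ε) ≤ M) : (2 * R + 1) ^ d ≤ 2 ^ M := by
  have hdp : (0 : ℝ) < d := by exact_mod_cast hd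
  have hd1 : (1 : ℝ) ≤ d := by exact_mod_cast hd
  have hq : 1 ≤ (d : ℝ) ^ 2 / ε := by
    rw [le_div_iff₀ h0]
    nlinarith
  set A : ℝ := 17 * (d : ℝ) ^ 2 / ε with hA
  have hAp : 0 < A := by positivity
  have hRA : (2 * (R : ℝ) + 1) ≤ A := by
    have e1 : A = 17 * ((d : ℝ) ^ 2 / ε) := by rw [hA]; ring
    have e2 : 7 * (d : ℝ) ^ 2 / ε = 7 * ((d : ℝ) ^ 2 / ε) := by ring
    rw [e2] at hR
    rw [e1]
    linarith
  have key : ((2 * (R : ℝ) + 1)) ^ d ≤ (2 : ℝ) ^ M := by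
    calc ((2 * (R : ℝ) + 1)) ^ d ≤ A ^ d := pow_le_pow_left₀ (by positivity) hRA d
      _ = ((2 : ℝ) ^ (Real.logb 2 A)) ^ d := by
          rw [Real.rpow_logb (by norm_num) (by norm_num) hAp]
      _ = (2 : ℝ) ^ (Real.logb 2 A * d) := by
          rw [Real.rpow_mul (by norm_num), Real.rpow_natCast]
      _ ≤ (2 : ℝ) ^ (M : ℝ) := by
          apply Real.rpow_le_rpow_of_exponent_le (by norm_num)
          linarith
      _ = (2 : ℝ) ^ M := Real.rpow_natCast _ _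
  exact_mod_cast key

theorem achievable_of_le (hd : 1 ≤ d) {ε : ℝ} (h0 : 0 < ε) (h1 : ε ≤ 1) {M T : ℕ}
    (hM : d * Real.logb 2 (17 * (d : ℝ) ^ 2 / ε) ≤ M)
    (hT : 2 * d * Real.log (30 / ε ^ 2) ≤ T) : Achievable d M T ε := by
  have : NeZero d := ⟨by omega⟩
  have hdp : (0 : ℝ) < d := by exact_mod_cast hd
  obtain ⟨R, hR1, hR2⟩ : ∃ R : ℕ, 7 * (d : ℝ) ^ 2 / ε ≤ R ∧ (R : ℝ) < 7 * (d : ℝ) ^ 2 / ε + 1 :=
    ⟨⌈7 * (d : ℝ) ^ 2 / ε⌉₊, Nat.le_ceil _, Nat.ceil_lt_add_one (by positivity)⟩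
  have hRpos : 1 ≤ R := by
    have : (0 : ℝ) < R := lt_of_lt_of_le (by positivity) hR1
    exact_mod_cast this
  obtain ⟨K, hK, ⟨e⟩⟩ : ∃ K : ℕ, K = (2 * R + 1) ^ d ∧ Nonempty ((Fin d → Fin (2 * R + 1)) ≃ Fin K) :=
    ⟨_, rfl, ⟨finFunctionFinEquiv⟩⟩
  have hKM : K ≤ 2 ^ M := hK ▸ grid_card_le hd h0 h1 hR2 hM
  refine ⟨kacz e hKM, kacz_successProb hRpos e hKM T h0 h1 ?_⟩
  have a1 := contraction_pow_le hd h0 hT
  have a2 := grid_term_le hd h0 hR1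
  linarith

end Vale.Agent.Lib.P309.Env
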