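import Vale.Agent.Lib.P309.Env.SphereMap
open MeasureTheory ProbabilityTheory Set Metric
open scoped ENNReal Pointwise
namespace Vale.Agent.Lib.P309.Env
variable {d M : ℕ}


lemma Learner.stateLaw_congr (L : Learner d M) (s s' : Sph d) (T : ℕ) (x : Fin T → Vec d)
    (h : ∀ i, inner ℝ (x i) (s : Vec d) = inner ℝ (x i) (s' : Vec d)) :
    L.stateLaw s T x = L.stateLaw s' T x := by
  induction T with
  | zero => rfl
  | succ T ih =>
    simp only [Learner.stateLaw]
    rw [ih (Fin.init x) (fun i => h i.castSucc), h (Fin.last T)]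

lemma exists_unit_orthogonal {T : ℕ} (hT : T < d) (x : Fin T → Vec d) :
    ∃ w : Vec d, ‖w‖ = 1 ∧ ∀ i, inner ℝ (x i) w = 0 := by
  set K := Submodule.span ℝ (Set.range x) with hK
  have h1 : Module.finrank ℝ K ≤ T := by
    have := finrank_range_le_card x (R := ℝ)
    simpa [Set.finrank, hK] using this
  have h2 : Module.finrank ℝ K + Module.finrank ℝ Kᗮ = d := by
    have := Submodule.finrank_add_finrank_orthogonal K
    simpa using this
  have h3 : 0 < Module.finrank ℝ Kᗮ := by omega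
  obtain ⟨v, hv⟩ := Module.finrank_pos_iff_exists_ne_zero.1 h3
  have hv0 : (v : Vec d) ≠ 0 := by simpa using hv
  refine ⟨(‖(v : Vec d)‖)⁻¹ • (v : Vec d), ?_, ?_⟩
  · rw [norm_smul, norm_inv, norm_norm, inv_mul_cancel₀ (norm_ne_zero_iff.2 hv0)]
  · intro i
    rw [inner_smul_right]
    have : inner ℝ (x i) (v : Vec d) = 0 :=
      (Submodule.mem_orthogonal K v).1 v.2 (x i) (Submodule.subset_span ⟨i, rfl⟩)
    rw [this, mul_zero]

/-- Householder reflection in the hyperplane orthogonal to `w` -/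
noncomputable def refl (w : Vec d) : Vec d ≃ₗᵢ[ℝ] Vec d := (ℝ ∙ w)ᗮ.reflection

lemma refl_apply {w : Vec d} (hw : ‖w‖ = 1) (v : Vec d) :
    refl w v = v - (2 * inner ℝ w v) • w := by
  unfold refl
  rw [Submodule.reflection_orthogonal_apply, Submodule.reflection_singleton_apply, hw]
  simp only [RCLike.ofReal_real_eq_id, id_eq, one_pow, div_one, neg_sub]
  rw [two_smul, two_mul, add_smul]



/-- slab inside the unit ball -/
def slab (w : Vec d) (ε : ℝ) : Set (Vec d) := {v | v ∈ ball (0 : Vec d) 1 ∧ |inner ℝ w v| ≤ ε}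

lemma measurableSet_slab (w : Vec d) (ε : ℝ) : MeasurableSet (slab w ε) := by
  have h : IsClosed {v : Vec d | |inner ℝ w v| ≤ ε} := by
    apply isClosed_le _ continuous_const
    fun_prop
  exact MeasurableSet.inter isOpen_ball.measurableSet h.measurableSet

lemma pow_bound (hd : 1 ≤ d) {ε : ℝ} (h0 : 0 < ε) (h1 : ε ≤ 1 / (30 * d)) :
    (1 + 30 * ε) ^ d ≤ 3 := by
  have hdR : (0 : ℝ) < d := by exact_mod_cast hd
  have h2 : 1 + 30 * ε ≤ Real.exp (1 / d) := by
    have : 30 * ε ≤ 1 / d := by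
      calc 30 * ε ≤ 30 * (1 / (30 * d)) := by gcongr
        _ = 1 / d := by field_simp
    have := Real.add_one_le_exp (1 / (d : ℝ))
    linarith
  calc (1 + 30 * ε) ^ d ≤ (Real.exp (1 / d)) ^ d := by gcongr
    _ = Real.exp 1 := by
        rw [← Real.exp_nat_mul]; congr 1; field_simp
    _ ≤ 3 := by have := Real.exp_one_lt_d9; linarith

lemma slab_vol_le (hd : 1 ≤ d) {w : Vec d} (hw : ‖w‖ = 1) {ε : ℝ} (h0 : 0 < ε)
    (h1 : ε ≤ 1 / (30 * d)) :
    10 * volume (slab w ε) ≤ 3 * volume (ball (0 : Vec d) 1) := by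
  set f : ℕ → Set (Vec d) := fun i => (fun v => v - (3 * ε * i) • w) ⁻¹' slab w ε with hf
  have hvol : ∀ i, volume (f i) = volume (slab w ε) := by
    intro i
    simp only [hf, sub_eq_add_neg]
    exact measure_preimage_add_right volume _ _
  have hmeas : ∀ i, MeasurableSet (f i) := by
    intro i
    exact (measurable_id.sub_const _) (measurableSet_slab w ε)
  have hww : inner ℝ w w = 1 := by rw [real_inner_self_eq_norm_sq, hw]; norm_num
  have hin : ∀ (i : ℕ) v, v ∈ f i → |inner ℝ w v - 3 * ε * i| ≤ ε := by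
    intro i v hv
    have := hv.2
    rwa [inner_sub_right, inner_smul_right, hww, mul_one] at this
  have hdisj : (↑(Finset.range 10) : Set ℕ).PairwiseDisjoint f := by
    intro i _ j _ hij
    rw [Function.onFun, Set.disjoint_left]
    intro v hvi hvj
    apply hij
    have a := abs_le.1 (hin i v hvi)
    have b := abs_le.1 (hin j v hvj)
    have h3 : |(i : ℝ) - j| < 1 := by
      rw [abs_lt]
      constructor <;> nlinarith [a.1, a.2, b.1, b.2]
    have h4 : |(i : ℤ) - j| < 1 := by exact_mod_cast h3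
    have h5 : (i : ℤ) - j = 0 := Int.abs_lt_one_iff.1 h4
    omega
  have hsub : (⋃ i ∈ Finset.range 10, f i) ⊆ ball (0 : Vec d) (1 + 30 * ε) := by
    intro v hv
    simp only [Set.mem_iUnion, Finset.mem_range] at hv
    obtain ⟨i, hi, hv⟩ := hv
    have h6 : ‖v - (3 * ε * i) • w‖ < 1 := by simpa using hv.1
    have h7 : ‖(3 * ε * (i : ℝ)) • w‖ ≤ 27 * ε := by
      rw [norm_smul, hw, mul_one, Real.norm_eq_abs, abs_of_nonneg (by positivity)]
      have : (i : ℝ) ≤ 9 := by exact_mod_cast (by omega : i ≤ 9)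
      nlinarith
    rw [mem_ball, dist_zero_right]
    calc ‖v‖ = ‖(v - (3 * ε * i) • w) + (3 * ε * i) • w‖ := by rw [sub_add_cancel]
      _ ≤ ‖v - (3 * ε * i) • w‖ + ‖(3 * ε * (i : ℝ)) • w‖ := norm_add_le _ _
      _ < 1 + 30 * ε := by linarith
  calc 10 * volume (slab w ε) = ∑ i ∈ Finset.range 10, volume (f i) := by
        simp [hvol]
    _ = volume (⋃ i ∈ Finset.range 10, f i) :=
        (measure_biUnion_finset hdisj (fun i _ => hmeas i)).symm
    _ ≤ volume (ball (0 : Vec d) (1 + 30 * ε)) := measure_mono hsub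
    _ = ENNReal.ofReal ((1 + 30 * ε) ^ d) * volume (ball (0 : Vec d) 1) := by
        rw [Measure.addHaar_ball_of_pos _ _ (by positivity)]
        simp
    _ ≤ 3 * volume (ball (0 : Vec d) 1) := by
        gcongr
        calc ENNReal.ofReal ((1 + 30 * ε) ^ d) ≤ ENNReal.ofReal 3 :=
              ENNReal.ofReal_le_ofReal (pow_bound hd h0 h1)
          _ = 3 := by simp

/-- the band around the equator orthogonal to `w` -/
def band (w : Vec d) (ε : ℝ) : Set (Sph d) := {s | |inner ℝ w (s : Vec d)| ≤ ε}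

lemma measurableSet_band (w : Vec d) (ε : ℝ) : MeasurableSet (band w ε) := by
  apply IsClosed.measurableSet
  apply isClosed_le _ continuous_const
  fun_prop

lemma band_le (hd : 1 ≤ d) {w : Vec d} (hw : ‖w‖ = 1) {ε : ℝ} (h0 : 0 < ε)
    (h1 : ε ≤ 1 / (30 * d)) :
    10 * unifSphere d (band w ε) ≤ 3 := by
  rw [unifSphere_eq, unifSphere_apply (measurableSet_band w ε)]
  set ω := volume (ball (0 : Vec d) 1) with hω
  have hω0 : ω ≠ 0 := (measure_ball_pos _ _ one_pos).ne'
  have hωt : ω ≠ ∞ := (measure_ball_lt_top).ne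
  have hd0 : (d : ℝ≥0∞) ≠ 0 := by simpa using (by omega : d ≠ 0)
  have hdt : (d : ℝ≥0∞) ≠ ∞ := ENNReal.natCast_ne_top d
  have hsub : (Ioo (0 : ℝ) 1 • ((↑) '' (band w ε) : Set (Vec d))) ⊆ slab w ε := by
    rintro v ⟨r, ⟨hr0, hr1⟩, _, ⟨s, hs, rfl⟩, rfl⟩
    have hs1 : ‖(s : Vec d)‖ = 1 := by simp
    constructor
    · simp only [mem_ball, dist_zero_right, norm_smul, hs1, mul_one, Real.norm_eq_abs]
      rw [abs_of_pos hr0]; exact hr1
    · show |inner ℝ w (r • (s : Vec d))| ≤ ε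
      rw [inner_smul_right, abs_mul, abs_of_pos hr0]
      have : |inner ℝ w (s : Vec d)| ≤ ε := hs
      nlinarith [abs_nonneg (inner ℝ w (s : Vec d))]
  calc 10 * (((d : ℝ≥0∞) * ω)⁻¹ * (d * volume (Ioo (0 : ℝ) 1 • ((↑) '' (band w ε) : Set (Vec d)))))
      ≤ 10 * (((d : ℝ≥0∞) * ω)⁻¹ * (d * volume (slab w ε))) := by
        gcongr
    _ = ((d : ℝ≥0∞) * ω)⁻¹ * (d * (10 * volume (slab w ε))) := by ring
    _ ≤ ((d : ℝ≥0∞) * ω)⁻¹ * (d * (3 * ω)) := by
        exact mul_le_mul' le_rfl (mul_le_mul' le_rfl (slab_vol_le hd hw h0 h1))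
    _ = (((d : ℝ≥0∞) * ω)⁻¹ * (d * ω)) * 3 := by ring
    _ = 3 := by
        rw [ENNReal.inv_mul_cancel (mul_ne_zero hd0 hω0) (ENNReal.mul_ne_top hdt hωt), one_mul]


end Vale.Agent.Lib.P309.Env
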