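import Mathlib

open MeasureTheory ProbabilityTheory
open scoped ENNReal

namespace Vale.Agent.Lib.P309.Env

/-- The ambient Euclidean space `ℝ^d`. -/
abbrev Vec (d : ℕ) := EuclideanSpace ℝ (Fin d)

/-- The Euclidean unit sphere `S^{d-1}` in `ℝ^d`. -/
abbrev Sph (d : ℕ) := Metric.sphere (0 : Vec d) 1

/-- The uniform probability measure on the unit sphere: the surface measure induced by Lebesgue
measure, normalised to total mass one. -/
noncomputable def unifSphere (d : ℕ) : Measure (Sph d) :=
  ((volume : Measure (Vec d)).toSphere Set.univ)⁻¹ • (volume : Measure (Vec d)).toSphere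

/-- A learner with `M` bits of persistent memory for signals in `ℝ^d`: a set of `K ≤ 2^M`
persistent states, a random initial state, for every index `t` a measurable randomized rule
(a Markov kernel) sending the current state and the current pair `(x_t, y_t)` to the new state
together with the decision to stop, and a randomized output rule reading only the final state. -/
structure Learner (d M : ℕ) where
  K : ℕ
  K_le : K ≤ 2 ^ M
  init : Measure (Fin K)
  init_prob : IsProbabilityMeasure init
  step : ℕ → Kernel (Fin K × (Vec d × ℝ)) (Fin K × Bool)
  step_markov : ∀ t, IsMarkovKernel (step t)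
  out : Kernel (Fin K) (Sph d)
  out_markov : IsMarkovKernel out

variable {d M : ℕ}

/-- One step of the learner on the pair `(x, y)` at index `t`: a learner that has stopped keeps its
state, otherwise the transition and stopping rule is applied. -/
noncomputable def Learner.advance (L : Learner d M) (t : ℕ) (x : Vec d) (y : ℝ)
    (zb : Fin L.K × Bool) : Measure (Fin L.K × Bool) :=
  if zb.2 then Measure.dirac zb else L.step t (zb.1, (x, y))

/-- The law of (state, has stopped) after the `T` samples with rows `x 0, ..., x (T-1)` and
signal `s`; the label of a row is its exact inner product with `s`. -/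
noncomputable def Learner.stateLaw (L : Learner d M) (s : Sph d) :
    (T : ℕ) → (Fin T → Vec d) → Measure (Fin L.K × Bool)
  | 0, _ => L.init.map (fun z => (z, false))
  | T + 1, x => (L.stateLaw s T (Fin.init x)).bind
      (L.advance T (x (Fin.last T)) (inner ℝ (x (Fin.last T)) (s : Vec d)))

/-- The probability that the output of the learner run with horizon `T` is within angle `ε` of the
signal, for `T` independent standard Gaussian rows and an independent uniformly random signal. -/
noncomputable def Learner.successProb (L : Learner d M) (T : ℕ) (ε : ℝ) : ℝ≥0∞ :=
  ∫⁻ p : (Fin T → Vec d) × Sph d,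
    ∫⁻ zb, L.out zb.1 {u : Sph d | Real.arccos (inner ℝ (u : Vec d) (p.2 : Vec d)) ≤ ε}
      ∂(L.stateLaw p.2 T p.1)
    ∂((Measure.pi fun _ : Fin T => stdGaussian (Vec d)).prod (unifSphere d))

/-- Some learner with `M` bits and horizon `T` succeeds at accuracy `ε` in dimension `d`. -/
def Achievable (d M T : ℕ) (ε : ℝ) : Prop :=
  ∃ L : Learner d M, 2 / 3 ≤ L.successProb T ε

end Vale.Agent.Lib.P309.Env
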