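import Vale.Agent.Lib.P309.Env.Band
open MeasureTheory ProbabilityTheory Set Metric
open scoped ENNReal Pointwise
namespace Vale.Agent.Lib.P309.Env
variable {d M : ℕ}

/-- the cap of outputs within angle `ε` of `s` -/
def cap (s : Sph d) (ε : ℝ) : Set (Sph d) :=
  {u : Sph d | Real.arccos (inner ℝ (u : Vec d) (s : Vec d)) ≤ ε}

lemma measurableSet_cap (s : Sph d) (ε : ℝ) : MeasurableSet (cap s ε) := by
  apply IsClosed.measurableSet
  apply isClosed_le _ continuous_const
  apply Real.continuous_arccos.comp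
  fun_prop

lemma caps_disjoint {w : Vec d} (hw : ‖w‖ = 1) (s : Sph d) {ε : ℝ} (hs : s ∉ band w ε) :
    Disjoint (cap s ε) (cap (sphMap (refl w) s) ε) := by
  rw [Set.disjoint_left]
  intro u hu hu'
  apply hs
  have h1 : ‖(s : Vec d) - u‖ ≤ ε := chord_le_of_arccos_le u s hu
  have h2 : ‖(sphMap (refl w) s : Vec d) - u‖ ≤ ε := chord_le_of_arccos_le u _ hu'
  rw [sphMap_coe, refl_apply hw] at h2
  have h3 : ‖(2 * inner ℝ w (s : Vec d)) • w‖ ≤ 2 * ε := by
    have e : (2 * inner ℝ w (s : Vec d)) • w =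
        ((s : Vec d) - u) - ((s : Vec d) - (2 * inner ℝ w (s : Vec d)) • w - u) := by abel
    rw [e]
    calc _ ≤ ‖(s : Vec d) - u‖ + ‖(s : Vec d) - (2 * inner ℝ w (s : Vec d)) • w - u‖ :=
          norm_sub_le _ _
      _ ≤ 2 * ε := by linarith
  rw [norm_smul, hw, mul_one, Real.norm_eq_abs, abs_mul] at h3
  have : |(2 : ℝ)| = 2 := by norm_num
  rw [this] at h3
  show |inner ℝ w (s : Vec d)| ≤ ε
  linarith

theorem Learner.successProb_le_of_lt (hd : 1 ≤ d) (L : Learner d M) {T : ℕ} (hT : T < d) {ε : ℝ}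
    (h0 : 0 < ε) (h1 : ε ≤ 1 / (30 * d)) :
    L.successProb T ε ≤ 13 / 20 := by
  have : NeZero d := ⟨by omega⟩
  have := L.out_markov
  have hinner : ∀ x : Fin T → Vec d,
      ∫⁻ s, ∫⁻ zb, L.out zb.1 (cap s ε) ∂(L.stateLaw s T x) ∂(unifSphere d) ≤ 13 / 20 := by
    intro x
    obtain ⟨w, hw, hx⟩ := exists_unit_orthogonal hT x
    set ρ := sphMap (refl w) with hρ
    set F : Sph d → ℝ≥0∞ := fun s => ∫⁻ zb, L.out zb.1 (cap s ε) ∂(L.stateLaw s T x) with hF
    have hcomp : ∫⁻ s, F (ρ s) ∂(unifSphere d) = ∫⁻ s, F s ∂(unifSphere d) :=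
      (measurePreserving_sphMap (refl w)).lintegral_comp_emb
        (sphEquiv (refl w)).measurableEmbedding F
    have hlaw : ∀ s, L.stateLaw (ρ s) T x = L.stateLaw s T x := by
      intro s
      apply L.stateLaw_congr
      intro i
      rw [hρ, sphMap_coe, refl_apply hw, inner_sub_right, inner_smul_right, hx i]
      simp
    have hpt : ∀ s, F s + F (ρ s) ≤ 1 + (band w ε).indicator 1 s := by
      intro s
      have := L.stateLaw_prob s T x
      simp only [hF]
      rw [hlaw s, ← lintegral_add_left Measurable.of_discrete]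
      calc ∫⁻ zb, (L.out zb.1 (cap s ε) + L.out zb.1 (cap (ρ s) ε)) ∂(L.stateLaw s T x)
          ≤ ∫⁻ _zb, (1 + (band w ε).indicator 1 s) ∂(L.stateLaw s T x) := by
            apply lintegral_mono
            intro zb
            by_cases hs : s ∈ band w ε
            · simp only [Set.indicator_of_mem hs, Pi.one_apply]
              exact add_le_add prob_le_one prob_le_one
            · simp only [Set.indicator_of_notMem hs, add_zero]
              rw [← measure_union (caps_disjoint hw s hs) (measurableSet_cap _ _)]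
              exact prob_le_one
        _ = _ := by simp
    have h2 : 2 * ∫⁻ s, F s ∂(unifSphere d) ≤ 1 + unifSphere d (band w ε) := by
      calc 2 * ∫⁻ s, F s ∂(unifSphere d)
          = ∫⁻ s, F s ∂(unifSphere d) + ∫⁻ s, F (ρ s) ∂(unifSphere d) := by
            rw [hcomp, two_mul]
        _ ≤ ∫⁻ s, (F s + F (ρ s)) ∂(unifSphere d) := le_lintegral_add _ _
        _ ≤ ∫⁻ s, (1 + (band w ε).indicator 1 s) ∂(unifSphere d) := lintegral_mono hpt
        _ = 1 + unifSphere d (band w ε) := by
            rw [lintegral_add_left measurable_const, lintegral_indicator_one (measurableSet_band w ε)]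
            simp
    have h3 := band_le hd hw h0 h1
    rw [ENNReal.le_div_iff_mul_le (by simp) (by simp)]
    calc (∫⁻ s, F s ∂(unifSphere d)) * 20 = 10 * (2 * ∫⁻ s, F s ∂(unifSphere d)) := by ring
      _ ≤ 10 * (1 + unifSphere d (band w ε)) := by gcongr
      _ = 10 + 10 * unifSphere d (band w ε) := by ring
      _ ≤ 10 + 3 := by gcongr
      _ = 13 := by norm_num
  unfold Learner.successProb
  calc _ ≤ ∫⁻ x, ∫⁻ s, ∫⁻ zb, L.out zb.1 (cap s ε)
          ∂(L.stateLaw s T x) ∂(unifSphere d) ∂(Measure.pi fun _ : Fin T => stdGaussian (Vec d)) :=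
        lintegral_prod_le _
    _ ≤ ∫⁻ _x, 13 / 20 ∂(Measure.pi fun _ : Fin T => stdGaussian (Vec d)) :=
        lintegral_mono hinner
    _ = _ := by simp

end Vale.Agent.Lib.P309.Env
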