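import Vale.Agent.Lib.P309.Env.Traj
open MeasureTheory ProbabilityTheory Set Metric
open scoped ENNReal Pointwise
namespace Vale.Agent.Lib.P309.Env
variable {d : ℕ}

/-- squared error after `T` steps -/
noncomputable def errSq (R : ℕ) (s : Sph d) (T : ℕ) (x : Fin T → Vec d) : ℝ :=
  ‖dec R (traj R s T x) - (s : Vec d)‖ ^ 2

lemma lintegral_errSq_le {R : ℕ} (hR : 1 ≤ R) (hd : 1 ≤ d) (s : Sph d) (T : ℕ) :
    ∫⁻ x, ENNReal.ofReal (errSq R s T x) ∂(Measure.pi fun _ : Fin T => stdGaussian (Vec d)) ≤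
      ENNReal.ofReal ((1 - 1 / (2 * d)) ^ T + d ^ 2 * (1 + 2 * d) / (2 * R ^ 2)) := by
  have hdp : (0 : ℝ) < d := by exact_mod_cast hd
  have hd1 : (1 : ℝ) ≤ d := by exact_mod_cast hd
  have hRp : (0 : ℝ) < R := by exact_mod_cast hR
  set μ : ℝ := 1 - 1 / (2 * d) with hμ
  have hμ0 : 0 ≤ μ := by
    rw [hμ, sub_nonneg, div_le_one (by positivity)]; linarith
  set c : ℝ := (1 + 2 * d) * d / (4 * R ^ 2) with hc
  have hc0 : 0 ≤ c := by positivity
  set D : ℝ := d ^ 2 * (1 + 2 * d) / (2 * R ^ 2) with hD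
  have hD0 : 0 ≤ D := by positivity
  have hDc : μ * D + c = D := by
    rw [hμ, hD, hc]; field_simp; ring
  induction T with
  | zero =>
    have : ∀ x : Fin 0 → Vec d, errSq R s 0 x = 1 := by
      intro x
      simp [errSq, traj, dec_k0]
    simp only [this, lintegral_const, measure_univ, mul_one, pow_zero]
    apply ENNReal.ofReal_le_ofReal
    linarith
  | succ T ih =>
    calc ∫⁻ x, ENNReal.ofReal (errSq R s (T + 1) x)
          ∂(Measure.pi fun _ : Fin (T + 1) => stdGaussian (Vec d))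
        ≤ ∫⁻ x' : Fin T → Vec d, ∫⁻ y, ENNReal.ofReal
            (‖dec R (next R (traj R s T x') y (inner ℝ y (s : Vec d))) - (s : Vec d)‖ ^ 2)
            ∂(stdGaussian (Vec d)) ∂(Measure.pi fun _ : Fin T => stdGaussian (Vec d)) :=
          lintegral_pi_succ (fun q : Vec d × (Fin T → Vec d) => ENNReal.ofReal
            (‖dec R (next R (traj R s T q.2) q.1 (inner ℝ q.1 (s : Vec d))) - (s : Vec d)‖ ^ 2))
      _ ≤ ∫⁻ x' : Fin T → Vec d, (ENNReal.ofReal μ * ENNReal.ofReal (errSq R s T x')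
            + ENNReal.ofReal c) ∂(Measure.pi fun _ : Fin T => stdGaussian (Vec d)) := by
          apply lintegral_mono
          intro x'
          refine (step_lintegral_le hR hd (traj R s T x') s).trans (le_of_eq ?_)
          rw [ENNReal.ofReal_add (mul_nonneg hμ0 (by positivity)) hc0, ENNReal.ofReal_mul hμ0]
          rfl
      _ = ENNReal.ofReal μ * ∫⁻ x' : Fin T → Vec d, ENNReal.ofReal (errSq R s T x')
            ∂(Measure.pi fun _ : Fin T => stdGaussian (Vec d)) + ENNReal.ofReal c := by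
          rw [lintegral_add_right _ measurable_const, lintegral_const_mul' _ _ ENNReal.ofReal_ne_top]
          simp
      _ ≤ ENNReal.ofReal μ * ENNReal.ofReal (μ ^ T + D) + ENNReal.ofReal c := by
          gcongr
      _ = ENNReal.ofReal (μ ^ (T + 1) + D) := by
          rw [← ENNReal.ofReal_mul hμ0, ← ENNReal.ofReal_add (by positivity) hc0]
          congr 1
          rw [pow_succ]
          linarith [hDc]

end Vale.Agent.Lib.P309.Env
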