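import Vale.Agent.Lib.P309.Env.Defs
open MeasureTheory ProbabilityTheory Set Metric
open scoped ENNReal Pointwise
namespace Vale.Agent.Lib.P309.Env
variable {d : ℕ}

/-- squared cosine-type quotient -/
noncomputable def quo (e y : Vec d) : ℝ := (inner ℝ y e) ^ 2 / ‖y‖ ^ 2

lemma quo_nonneg (e y : Vec d) : 0 ≤ quo e y := by unfold quo; positivity

lemma quo_le (e y : Vec d) : quo e y ≤ ‖e‖ ^ 2 := by
  unfold quo
  by_cases hy : y = 0
  · simp [hy]
  · have hy' : 0 < ‖y‖ ^ 2 := by positivity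
    rw [div_le_iff₀ hy']
    have := abs_real_inner_le_norm y e
    calc (inner ℝ y e) ^ 2 = |inner ℝ y e| ^ 2 := (sq_abs _).symm
      _ ≤ (‖y‖ * ‖e‖) ^ 2 := by gcongr
      _ = ‖e‖ ^ 2 * ‖y‖ ^ 2 := by ring

lemma measurable_quo (e : Vec d) : Measurable (quo e) := by
  unfold quo
  fun_prop

lemma integrable_quo (e : Vec d) : Integrable (quo e) (stdGaussian (Vec d)) := by
  apply Integrable.of_bound (measurable_quo e).aestronglyMeasurable (‖e‖ ^ 2)
  filter_upwards with y
  rw [Real.norm_eq_abs, abs_of_nonneg (quo_nonneg e y)]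
  exact quo_le e y

lemma integral_quo_map (f : Vec d ≃ₗᵢ[ℝ] Vec d) (e : Vec d) :
    ∫ y, quo (f e) y ∂(stdGaussian (Vec d)) = ∫ y, quo e y ∂(stdGaussian (Vec d)) := by
  conv_lhs => rw [← stdGaussian_map f]
  rw [integral_map f.continuous.measurable.aemeasurable (measurable_quo _).aestronglyMeasurable]
  congr 1
  ext y
  simp [quo, f.inner_map_map, f.norm_map]

lemma stdGaussian_singleton_zero (hd : 1 ≤ d) : stdGaussian (Vec d) {0} = 0 := by
  rw [← map_pi_eq_stdGaussian, Measure.map_apply (by fun_prop) (measurableSet_singleton _)]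
  have : (WithLp.toLp 2 : (Fin d → ℝ) → Vec d) ⁻¹' {0} = {0} := by
    ext x
    simp
  rw [this, Measure.pi_singleton]
  have : NeZero d := ⟨by omega⟩
  apply Finset.prod_eq_zero (Finset.mem_univ (0 : Fin d))
  have := nullSingletonClass_gaussianReal (μ := 0) (v := 1) one_ne_zero
  exact measure_singleton _

lemma sum_quo_single (y : Vec d) (hy : y ≠ 0) :
    ∑ i, quo (EuclideanSpace.single i (1 : ℝ)) y = 1 := by
  unfold quo
  rw [← Finset.sum_div]
  have hy' : ‖y‖ ^ 2 ≠ 0 := by positivity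
  rw [div_eq_one_iff_eq hy', EuclideanSpace.real_norm_sq_eq]
  congr 1
  ext i
  simp [EuclideanSpace.inner_single_right]

lemma integral_quo_unit (hd : 1 ≤ d) {e : Vec d} (he : ‖e‖ = 1) :
    ∫ y, quo e y ∂(stdGaussian (Vec d)) = 1 / d := by
  have hall : ∀ i : Fin d, ∫ y, quo (EuclideanSpace.single i (1 : ℝ)) y ∂(stdGaussian (Vec d))
      = ∫ y, quo e y ∂(stdGaussian (Vec d)) := by
    intro i
    have hn : ‖e‖ = ‖(EuclideanSpace.single i (1 : ℝ) : Vec d)‖ := by simp [he]
    have := Submodule.reflection_sub hn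
    rw [← this, integral_quo_map]
  have hsum : ∑ i : Fin d, ∫ y, quo (EuclideanSpace.single i (1 : ℝ)) y ∂(stdGaussian (Vec d)) = 1 := by
    rw [← integral_finsetSum _ (fun i _ => integrable_quo _)]
    have : (fun y => ∑ i : Fin d, quo (EuclideanSpace.single i (1 : ℝ)) y) =ᵐ[stdGaussian (Vec d)]
        fun _ => (1 : ℝ) := by
      have h0 : ∀ᵐ y ∂(stdGaussian (Vec d)), y ≠ 0 := by
        rw [ae_iff]; simpa using stdGaussian_singleton_zero hd
      filter_upwards [h0] with y hy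
      exact sum_quo_single y hy
    rw [integral_congr_ae this]
    simp
  simp only [hall, Finset.sum_const, Finset.card_univ, Fintype.card_fin, nsmul_eq_mul] at hsum
  have hdR : (d : ℝ) ≠ 0 := by exact_mod_cast (by omega : d ≠ 0)
  field_simp
  linarith

lemma integral_quo (hd : 1 ≤ d) (e : Vec d) :
    ∫ y, quo e y ∂(stdGaussian (Vec d)) = ‖e‖ ^ 2 / d := by
  by_cases he : e = 0
  · simp [he, quo]
  · have hne : ‖e‖ ≠ 0 := norm_ne_zero_iff.2 he
    have hu : ‖(‖e‖⁻¹ • e)‖ = 1 := by rw [norm_smul, norm_inv, norm_norm, inv_mul_cancel₀ hne]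
    have hq : ∀ y, quo e y = ‖e‖ ^ 2 * quo (‖e‖⁻¹ • e) y := by
      intro y
      unfold quo
      rw [inner_smul_right]
      field_simp
    simp_rw [hq]
    rw [integral_const_mul, integral_quo_unit hd hu]
    ring

end Vale.Agent.Lib.P309.Env
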