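import Vale.Agent.Lib.P309.Env.Normalize
open MeasureTheory ProbabilityTheory Set Metric
open scoped ENNReal Pointwise
namespace Vale.Agent.Lib.P309.Env
variable {d M : ℕ}

lemma measurable_kstep {R K : ℕ} (e : (Fin d → Fin (2 * R + 1)) ≃ Fin K) :
    Measurable (fun p : Fin K × (Vec d × ℝ) =>
      (e (next R (e.symm p.1) p.2.1 p.2.2), false)) := by
  apply Measurable.prodMk _ measurable_const
  have h0 : Measurable e := Measurable.of_discrete
  have h00 : Measurable e.symm := Measurable.of_discrete
  have h1 : Measurable (fun p : Fin K × (Vec d × ℝ) => (e.symm p.1, p.2)) :=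
    (h00.comp measurable_fst).prodMk measurable_snd
  have h2 := Measurable.comp (measurable_next R) h1
  exact h0.comp h2

/-- the quantized Kaczmarz learner -/
noncomputable def kacz [NeZero d] {R K : ℕ} (e : (Fin d → Fin (2 * R + 1)) ≃ Fin K)
    (hM : K ≤ 2 ^ M) : Learner d M where
  K := K
  K_le := hM
  init := Measure.dirac (e (k0 R))
  init_prob := inferInstance
  step := fun _ => Kernel.deterministic _ (measurable_kstep e)
  step_markov := fun _ => inferInstance
  out := Kernel.deterministic (fun z => normalize (dec R (e.symm z))) Measurable.of_discrete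
  out_markov := inferInstance

lemma kacz_stateLaw [NeZero d] {R K : ℕ} (e : (Fin d → Fin (2 * R + 1)) ≃ Fin K)
    (hM : K ≤ 2 ^ M) (s : Sph d) (T : ℕ) (x : Fin T → Vec d) :
    (kacz e hM).stateLaw s T x = Measure.dirac (e (traj R s T x), false) := by
  induction T with
  | zero =>
    show Measure.map (fun z : Fin K => (z, false)) (Measure.dirac (e (k0 R))) = _
    rw [Measure.map_dirac' Measurable.of_discrete]
    rfl
  | succ T ih =>
    have h1 : (kacz e hM).stateLaw s (T + 1) x =
        Measure.bind ((kacz e hM).stateLaw s T (Fin.init x))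
          ((kacz e hM).advance T (x (Fin.last T)) (inner ℝ (x (Fin.last T)) (s : Vec d))) := rfl
    rw [h1, ih (Fin.init x)]
    refine Eq.trans (Measure.dirac_bind (f := (kacz e hM).advance T (x (Fin.last T))
      (inner ℝ (x (Fin.last T)) (s : Vec d))) Measurable.of_discrete _) ?_
    have h2 : (kacz e hM).advance T (x (Fin.last T)) (inner ℝ (x (Fin.last T)) (s : Vec d))
        (e (traj R s T (Fin.init x)), false) =
        (Kernel.deterministic _ (measurable_kstep e))
          (e (traj R s T (Fin.init x)), (x (Fin.last T), inner ℝ (x (Fin.last T)) (s : Vec d))) := rfl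
    refine h2.trans ?_
    rw [Kernel.deterministic_apply, traj_succ]
    simp only [Equiv.symm_apply_apply]
    rfl

end Vale.Agent.Lib.P309.Env
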