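import Vale.Agent.Lib.P309.Env.Kacz
open MeasureTheory ProbabilityTheory Set Metric
open scoped ENNReal Pointwise
namespace Vale.Agent.Lib.P309.Env
variable {d M : ℕ}

lemma measurable_errSq (R T : ℕ) :
    Measurable (fun p : (Fin T → Vec d) × Sph d => errSq R p.2 T p.1) := by
  unfold errSq
  have h1 : Measurable (fun p : (Fin T → Vec d) × Sph d => dec R (traj R p.2 T p.1)) :=
    (Measurable.of_discrete (f := fun k : Fin d → Fin (2 * R + 1) => dec R k)).comp
      (measurable_traj R T)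
  have h2 : Measurable (fun p : (Fin T → Vec d) × Sph d => (p.2 : Vec d)) :=
    measurable_subtype_coe.comp measurable_snd
  exact ((h1.sub h2).norm).pow_const 2

lemma ennreal_two_thirds {a b : ℝ≥0∞} (h1 : 1 ≤ a + b) (h2 : b ≤ 1 / 3) : 2 / 3 ≤ a := by
  have h3 : (1 : ℝ≥0∞) ≤ a + 1 / 3 := h1.trans (by gcongr)
  have h4 : (2 / 3 : ℝ≥0∞) + 1 / 3 = 1 := by
    rw [ENNReal.div_add_div_same]
    norm_num
    exact ENNReal.div_self (by norm_num) (by norm_num)
  have h5 : (2 / 3 : ℝ≥0∞) + 1 / 3 ≤ a + 1 / 3 := by rw [h4]; exact h3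
  exact (ENNReal.add_le_add_iff_right (by simp)).1 h5

theorem kacz_successProb [NeZero d] {R K : ℕ} (hR : 1 ≤ R)
    (e : (Fin d → Fin (2 * R + 1)) ≃ Fin K) (hM : K ≤ 2 ^ M) (T : ℕ) {ε : ℝ}
    (h0 : 0 < ε) (h1 : ε ≤ 1)
    (hb : (1 - 1 / (2 * (d : ℝ))) ^ T + (d : ℝ) ^ 2 * (1 + 2 * d) / (2 * (R : ℝ) ^ 2) ≤ ε ^ 2 / 15) :
    2 / 3 ≤ (kacz e hM).successProb T ε := by
  have hd : 1 ≤ d := NeZero.one_le
  set μP := (Measure.pi fun _ : Fin T => stdGaussian (Vec d)).prod (unifSphere d) with hμP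
  have hprob : IsProbabilityMeasure μP := by rw [hμP]; infer_instance
  set G : Set ((Fin T → Vec d) × Sph d) := {p | errSq R p.2 T p.1 ≤ ε ^ 2 / 5} with hG
  have hGm : MeasurableSet G := measurableSet_le (measurable_errSq R T) measurable_const
  have hlow : μP G ≤ (kacz e hM).successProb T ε := by
    rw [← lintegral_indicator_one hGm]
    unfold Learner.successProb
    apply lintegral_mono
    intro p
    show G.indicator 1 p ≤ ∫⁻ (zb : Fin (kacz e hM).K × Bool),
          ((kacz e hM).out zb.1) (cap p.2 ε) ∂(kacz e hM).stateLaw p.2 T p.1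
    rw [kacz_stateLaw]
    show G.indicator 1 p ≤ ∫⁻ (zb : Fin K × Bool),
          ((kacz e hM).out zb.1) (cap p.2 ε) ∂(Measure.dirac (e (traj R p.2 T p.1), false))
    rw [lintegral_dirac]
    by_cases hp : p ∈ G
    · have hmem : normalize (dec R (traj R p.2 T p.1)) ∈ cap p.2 ε :=
        normalize_mem_cap _ _ h0 h1 hp
      have h3 : (kacz e hM).out (e (traj R p.2 T p.1)) (cap p.2 ε) = 1 := by
        have h4 : (kacz e hM).out (e (traj R p.2 T p.1)) =
          Measure.dirac (normalize (dec R (e.symm (e (traj R p.2 T p.1))))) := rfl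
        rw [h4, Equiv.symm_apply_apply, Measure.dirac_apply' _ (measurableSet_cap _ _)]
        simp [hmem]
      simp only [indicator_of_mem hp, Pi.one_apply]
      exact le_of_eq h3.symm
    · simp [indicator_of_notMem hp]
  have hcompl : μP Gᶜ ≤ 1 / 3 := by
    have hsub : Gᶜ ⊆ {p | ENNReal.ofReal (ε ^ 2 / 5) ≤ ENNReal.ofReal (errSq R p.2 T p.1)} := by
      intro p hp
      simp only [hG, mem_compl_iff, mem_ofPred_eq, not_le] at hp
      exact ENNReal.ofReal_le_ofReal hp.le
    have hmk := meas_ge_le_lintegral_div (μ := μP)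
      (f := fun p => ENNReal.ofReal (errSq R p.2 T p.1))
      ((measurable_errSq R T).ennreal_ofReal.aemeasurable)
      (ε := ENNReal.ofReal (ε ^ 2 / 5)) (by simp; positivity) ENNReal.ofReal_ne_top
    have hint : ∫⁻ p, ENNReal.ofReal (errSq R p.2 T p.1) ∂μP ≤ ENNReal.ofReal (ε ^ 2 / 15) := by
      rw [hμP, lintegral_prod_symm _ ((measurable_errSq R T).ennreal_ofReal.aemeasurable)]
      calc ∫⁻ y, ∫⁻ x, ENNReal.ofReal (errSq R y T x)
            ∂(Measure.pi fun _ : Fin T => stdGaussian (Vec d)) ∂(unifSphere d)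
          ≤ ∫⁻ _y, ENNReal.ofReal (ε ^ 2 / 15) ∂(unifSphere d) := by
            apply lintegral_mono
            intro y
            exact (lintegral_errSq_le hR hd y T).trans (ENNReal.ofReal_le_ofReal hb)
        _ = ENNReal.ofReal (ε ^ 2 / 15) := by simp
    calc μP Gᶜ ≤ _ := measure_mono hsub
      _ ≤ _ := hmk
      _ ≤ ENNReal.ofReal (ε ^ 2 / 15) / ENNReal.ofReal (ε ^ 2 / 5) := by gcongr
      _ = ENNReal.ofReal ((ε ^ 2 / 15) / (ε ^ 2 / 5)) := by
          rw [ENNReal.ofReal_div_of_pos (y := ε ^ 2 / 5) (by positivity)]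
      _ = ENNReal.ofReal (1 / 3) := by
          congr 1
          field_simp
          norm_num
      _ = 1 / 3 := by
          rw [ENNReal.ofReal_div_of_pos (by norm_num)]
          simp
  refine le_trans (ennreal_two_thirds (a := μP G) (b := μP Gᶜ) ?_ hcompl) hlow
  rw [measure_add_measure_compl hGm, measure_univ]

end Vale.Agent.Lib.P309.Env
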