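import Vale.Agent.Lib.P309.Env.ErrRec
import Vale.Agent.Lib.P309.Env.Dimension
open MeasureTheory ProbabilityTheory Set Metric
open scoped ENNReal Pointwise
namespace Vale.Agent.Lib.P309.Env
variable {d : ℕ}

/-- a fixed point of the sphere -/
noncomputable def pole (d : ℕ) [NeZero d] : Sph d := ⟨EuclideanSpace.single 0 1, by simp⟩

/-- radial projection to the sphere -/
noncomputable def normalize [NeZero d] (v : Vec d) : Sph d :=
  if h : v = 0 then pole d else ⟨‖v‖⁻¹ • v, by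
    simp [norm_smul, inv_mul_cancel₀ (norm_ne_zero_iff.2 h)]⟩

lemma normalize_mem_cap [NeZero d] (z : Vec d) (s : Sph d) {ε : ℝ} (h0 : 0 < ε) (h1 : ε ≤ 1)
    (h : ‖z - s‖ ^ 2 ≤ ε ^ 2 / 5) : normalize z ∈ cap s ε := by
  have hs : ‖(s : Vec d)‖ = 1 := by simp
  set δ := ‖z - s‖ with hδ
  have hδ0 : 0 ≤ δ := norm_nonneg _
  have hδ1 : δ ≤ 1 / 2 := by nlinarith
  have hz1 : 1 - δ ≤ ‖z‖ := by
    have := norm_sub_norm_le (s : Vec d) z
    rw [hs, norm_sub_rev] at this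
    linarith
  have hz2 : ‖z‖ ≤ 1 + δ := by
    have := norm_sub_norm_le z (s : Vec d)
    rw [hs] at this
    linarith
  have hzpos : 0 < ‖z‖ := by linarith
  have hz : z ≠ 0 := norm_pos_iff.1 hzpos
  have hn : (normalize z : Vec d) = ‖z‖⁻¹ • z := by
    unfold normalize
    rw [dif_neg hz]
  have hun : ‖(normalize z : Vec d)‖ = 1 := by simp
  -- chord bound
  have hch : ‖(normalize z : Vec d) - s‖ ≤ 2 * δ := by
    have e1 : (normalize z : Vec d) - s = (‖z‖⁻¹ • z - z) + (z - s) := by rw [hn]; abel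
    have e2 : ‖‖z‖⁻¹ • z - z‖ = |1 - ‖z‖| := by
      have : ‖z‖⁻¹ • z - z = (‖z‖⁻¹ - 1) • z := by rw [sub_smul, one_smul]
      rw [this, norm_smul, Real.norm_eq_abs]
      have : (‖z‖⁻¹ - 1) = (1 - ‖z‖) / ‖z‖ := by field_simp
      rw [this, abs_div, abs_of_pos hzpos]
      field_simp
    have e3 : |1 - ‖z‖| ≤ δ := by rw [abs_le]; constructor <;> linarith
    rw [e1]
    calc _ ≤ ‖‖z‖⁻¹ • z - z‖ + ‖z - s‖ := norm_add_le _ _
      _ ≤ 2 * δ := by rw [e2]; linarith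
  have hin : inner ℝ (normalize z : Vec d) (s : Vec d) = 1 - ‖(normalize z : Vec d) - s‖ ^ 2 / 2 := by
    rw [@norm_sub_sq_real, hun, hs]; ring
  have hcos : Real.cos ε ≤ inner ℝ (normalize z : Vec d) (s : Vec d) := by
    have hb := Real.cos_bound (x := ε) (by rw [abs_of_pos h0]; exact h1)
    rw [abs_of_pos h0] at hb
    have hb2 := (abs_le.1 hb).2
    have h4 : ε ^ 4 ≤ ε ^ 2 := pow_le_pow_of_le_one h0.le h1 (by norm_num)
    have h5 : ‖(normalize z : Vec d) - s‖ ^ 2 ≤ 4 * δ ^ 2 := by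
      calc _ ≤ (2 * δ) ^ 2 := by gcongr
        _ = 4 * δ ^ 2 := by ring
    rw [hin]
    nlinarith
  show Real.arccos (inner ℝ (normalize z : Vec d) (s : Vec d)) ≤ ε
  calc Real.arccos (inner ℝ (normalize z : Vec d) (s : Vec d)) ≤ Real.arccos (Real.cos ε) :=
        Real.arccos_le_arccos hcos
    _ = ε := Real.arccos_cos h0.le (by have := Real.pi_gt_three; linarith)

end Vale.Agent.Lib.P309.Env
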