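import Vale.Agent.Lib.P309.Env.Quantize
open MeasureTheory ProbabilityTheory Set Metric
open scoped ENNReal Pointwise
namespace Vale.Agent.Lib.P309.Env
variable {d : ℕ}

/-- the grid point encoded by a vector of indices -/
noncomputable def dec (R : ℕ) (k : Fin d → Fin (2 * R + 1)) : Vec d :=
  WithLp.toLp 2 (fun i => gval R (k i))

/-- the Kaczmarz update -/
noncomputable def upd (z x : Vec d) (y : ℝ) : Vec d := z + ((y - inner ℝ x z) / ‖x‖ ^ 2) • x

/-- the quantized Kaczmarz update on grid indices -/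
noncomputable def next (R : ℕ) (k : Fin d → Fin (2 * R + 1)) (x : Vec d) (y : ℝ) :
    Fin d → Fin (2 * R + 1) := fun i => idx R ((upd (dec R k) x y) i)

lemma sq_add_le (a h θ : ℝ) (hθ : 0 < θ) : (a + h) ^ 2 ≤ (1 + θ) * a ^ 2 + (1 + 1 / θ) * h ^ 2 := by
  have h1 : 0 ≤ (θ * a - h) ^ 2 / θ := by positivity
  have h2 : (θ * a - h) ^ 2 / θ = θ * a ^ 2 - 2 * a * h + h ^ 2 / θ := by field_simp; ring
  have h3 : (1 + 1 / θ) * h ^ 2 = h ^ 2 + h ^ 2 / θ := by field_simp
  nlinarith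

lemma abs_coord_le (s : Sph d) (i : Fin d) : |(s : Vec d) i| ≤ 1 := by
  have h := EuclideanSpace.norm_eq (s : Vec d)
  have hs : ‖(s : Vec d)‖ = 1 := by simp
  have h2 : ‖(s : Vec d)‖ ^ 2 = ∑ j, (s : Vec d) j ^ 2 := EuclideanSpace.real_norm_sq_eq _
  rw [hs] at h2
  have h3 : (s : Vec d) i ^ 2 ≤ ∑ j, (s : Vec d) j ^ 2 :=
    Finset.single_le_sum (f := fun j => (s : Vec d) j ^ 2) (fun j _ => sq_nonneg _) (Finset.mem_univ i)
  rw [← h2] at h3
  exact abs_le_one_iff_mul_self_le_one.2 (by nlinarith)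

lemma round_sq_le {R : ℕ} (hR : 1 ≤ R) (hd : 1 ≤ d) (w : Vec d) (s : Sph d) :
    ‖dec R (fun i => idx R (w i)) - s‖ ^ 2 ≤
      (1 + 1 / (2 * d)) * ‖w - s‖ ^ 2 + (1 + 2 * d) * d / (4 * R ^ 2) := by
  have hdp : (0 : ℝ) < d := by exact_mod_cast hd
  have hRp : (0 : ℝ) < R := by exact_mod_cast hR
  rw [EuclideanSpace.real_norm_sq_eq, EuclideanSpace.real_norm_sq_eq]
  have hpt : ∀ i : Fin d, ((dec R (fun i => idx R (w i)) - (s : Vec d)) i) ^ 2 ≤
      (1 + 1 / (2 * d)) * ((w - (s : Vec d)) i) ^ 2 + (1 + 2 * d) / (4 * R ^ 2) := by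
    intro i
    have h1 := gval_idx_sub_le hR (w i) ((s : Vec d) i) (abs_coord_le s i)
    have e1 : (dec R (fun i => idx R (w i)) - (s : Vec d)) i = gval R (idx R (w i)) - (s : Vec d) i := rfl
    have e2 : (w - (s : Vec d)) i = w i - (s : Vec d) i := rfl
    rw [e1, e2]
    calc (gval R (idx R (w i)) - (s : Vec d) i) ^ 2 = |gval R (idx R (w i)) - (s : Vec d) i| ^ 2 :=
          (sq_abs _).symm
      _ ≤ (|w i - (s : Vec d) i| + 1 / (2 * R)) ^ 2 := by gcongr
      _ ≤ (1 + 1 / (2 * d)) * |w i - (s : Vec d) i| ^ 2 + (1 + 1 / (1 / (2 * d))) * (1 / (2 * R)) ^ 2 :=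
          sq_add_le _ _ _ (by positivity)
      _ = _ := by rw [sq_abs]; field_simp; ring
  calc ∑ i, ((dec R (fun i => idx R (w i)) - (s : Vec d)) i) ^ 2
      ≤ ∑ i : Fin d, ((1 + 1 / (2 * d)) * ((w - (s : Vec d)) i) ^ 2 + (1 + 2 * d) / (4 * R ^ 2)) :=
        Finset.sum_le_sum (fun i _ => hpt i)
    _ = _ := by
        rw [Finset.sum_add_distrib, ← Finset.mul_sum]
        simp only [Finset.sum_const, Finset.card_univ, Fintype.card_fin, nsmul_eq_mul]
        ring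

lemma upd_sub_sq (z x : Vec d) (s : Vec d) :
    ‖upd z x (inner ℝ x s) - s‖ ^ 2 = ‖z - s‖ ^ 2 - quo (z - s) x := by
  unfold upd quo
  have e1 : inner ℝ x s - inner ℝ x z = - inner ℝ x (z - s) := by rw [inner_sub_right]; ring
  rw [e1]
  set e := z - s with he
  have e2 : z + (-inner ℝ x e / ‖x‖ ^ 2) • x - s = e - (inner ℝ x e / ‖x‖ ^ 2) • x := by
    rw [he, neg_div, neg_smul]; abel
  rw [e2, @norm_sub_sq_real, inner_smul_right, norm_smul, real_inner_comm]
  by_cases hx : x = 0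
  · simp [hx]
  · have hx' : ‖x‖ ≠ 0 := norm_ne_zero_iff.2 hx
    rw [Real.norm_eq_abs, mul_pow, sq_abs]
    field_simp
    ring

lemma step_sq_le {R : ℕ} (hR : 1 ≤ R) (hd : 1 ≤ d) (k : Fin d → Fin (2 * R + 1)) (x : Vec d)
    (s : Sph d) :
    ‖dec R (next R k x (inner ℝ x (s : Vec d))) - s‖ ^ 2 ≤
      (1 + 1 / (2 * d)) * (‖dec R k - s‖ ^ 2 - quo (dec R k - (s : Vec d)) x)
        + (1 + 2 * d) * d / (4 * R ^ 2) := by
  have := round_sq_le hR hd (upd (dec R k) x (inner ℝ x (s : Vec d))) s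
  rw [upd_sub_sq] at this
  exact this

lemma step_lintegral_le {R : ℕ} (hR : 1 ≤ R) (hd : 1 ≤ d) (k : Fin d → Fin (2 * R + 1))
    (s : Sph d) :
    ∫⁻ x, ENNReal.ofReal (‖dec R (next R k x (inner ℝ x (s : Vec d))) - s‖ ^ 2)
        ∂(stdGaussian (Vec d)) ≤
      ENNReal.ofReal ((1 - 1 / (2 * d)) * ‖dec R k - s‖ ^ 2 + (1 + 2 * d) * d / (4 * R ^ 2)) := by
  have hdp : (0 : ℝ) < d := by exact_mod_cast hd
  set e := dec R k - (s : Vec d) with he
  set c : ℝ := (1 + 2 * d) * d / (4 * R ^ 2) with hc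
  have hc0 : 0 ≤ c := by positivity
  set g : Vec d → ℝ := fun x => (1 + 1 / (2 * d)) * (‖e‖ ^ 2 - quo e x) + c with hg
  have hgi : Integrable g (stdGaussian (Vec d)) := by
    apply Integrable.add _ (integrable_const _)
    apply Integrable.const_mul
    exact (integrable_const _).sub (integrable_quo e)
  have hg0 : ∀ x, 0 ≤ g x := by
    intro x
    have := quo_le e x
    have : 0 ≤ ‖e‖ ^ 2 - quo e x := by linarith
    positivity
  calc ∫⁻ x, ENNReal.ofReal (‖dec R (next R k x (inner ℝ x (s : Vec d))) - s‖ ^ 2)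
        ∂(stdGaussian (Vec d))
      ≤ ∫⁻ x, ENNReal.ofReal (g x) ∂(stdGaussian (Vec d)) := by
        apply lintegral_mono
        intro x
        exact ENNReal.ofReal_le_ofReal (step_sq_le hR hd k x s)
    _ = ENNReal.ofReal (∫ x, g x ∂(stdGaussian (Vec d))) :=
        (ofReal_integral_eq_lintegral_ofReal hgi (Filter.Eventually.of_forall hg0)).symm
    _ ≤ _ := by
        apply ENNReal.ofReal_le_ofReal
        have : ∫ x, g x ∂(stdGaussian (Vec d)) = (1 + 1 / (2 * d)) * (‖e‖ ^ 2 - ‖e‖ ^ 2 / d) + c := by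
          simp only [hg]
          have i1 : Integrable (fun x => ‖e‖ ^ 2 - quo e x) (stdGaussian (Vec d)) :=
            (integrable_const _).sub (integrable_quo e)
          rw [integral_add (i1.const_mul _) (integrable_const _), integral_const_mul,
            integral_sub (integrable_const _) (integrable_quo e), integral_quo hd]
          simp
        rw [this]
        have h5 : (1 + 1 / (2 * (d : ℝ))) * (‖e‖ ^ 2 - ‖e‖ ^ 2 / d) =
            (1 - 1 / (2 * d)) * ‖e‖ ^ 2 - ‖e‖ ^ 2 / (2 * d ^ 2) := by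
          field_simp; ring
        have h6 : 0 ≤ ‖e‖ ^ 2 / (2 * (d : ℝ) ^ 2) := by positivity
        linarith

end Vale.Agent.Lib.P309.Env
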