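import Vale.Agent.Lib.P309.Env.GaussQuo
open MeasureTheory ProbabilityTheory Set Metric
open scoped ENNReal Pointwise
namespace Vale.Agent.Lib.P309.Env
variable {d : ℕ}

/-- grid index of the point of `{-1, ..., 1}` with mesh `1/R` nearest to (the clamp of) `w` -/
noncomputable def idx (R : ℕ) (w : ℝ) : Fin (2 * R + 1) :=
  Fin.clamp (Int.toNat (⌊(R : ℝ) * w + 1 / 2⌋ + R)) (2 * R)

/-- value of a grid index -/
noncomputable def gval (R : ℕ) (k : Fin (2 * R + 1)) : ℝ := ((k : ℕ) - (R : ℝ)) / R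

lemma measurable_idx (R : ℕ) : Measurable (idx R) := by
  unfold idx
  have h1 : Measurable (fun w : ℝ => ⌊(R : ℝ) * w + 1 / 2⌋) :=
    Int.measurable_floor.comp (by fun_prop)
  exact (Measurable.of_discrete (f := fun n : ℤ => Fin.clamp (Int.toNat (n + R)) (2 * R))).comp h1

lemma gval_idx_sub_le {R : ℕ} (hR : 1 ≤ R) (w t : ℝ) (ht : |t| ≤ 1) :
    |gval R (idx R w) - t| ≤ |w - t| + 1 / (2 * R) := by
  have hRp : (0 : ℝ) < R := by exact_mod_cast hR
  obtain ⟨ht1, ht2⟩ := abs_le.1 ht
  set n : ℤ := ⌊(R : ℝ) * w + 1 / 2⌋ with hn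
  have hfl1 : (n : ℝ) ≤ R * w + 1 / 2 := Int.floor_le _
  have hfl2 : (R : ℝ) * w + 1 / 2 < n + 1 := Int.lt_floor_add_one _
  have hval : ((idx R w : Fin (2 * R + 1)) : ℕ) = min (Int.toNat (n + R)) (2 * R) := rfl
  have h12 : (0:ℝ) < 1 / (2 * R) := by positivity
  unfold gval
  rw [hval]
  rcases lt_or_ge (n + (R : ℤ)) 0 with hneg | hpos
  · -- clamp at the bottom: value -1, and w < -1 + ...
    have h0 : Int.toNat (n + R) = 0 := Int.toNat_eq_zero.2 hneg.le
    rw [h0]
    simp only [Nat.zero_min, Nat.cast_zero, zero_sub]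
    have e1 : -(R : ℝ) / R = -1 := by field_simp
    rw [e1]
    have hnR : (n : ℝ) + R ≤ -1 := by exact_mod_cast (by omega : n + (R : ℤ) ≤ -1)
    have hw : w < -1 := by
      have : (R : ℝ) * w < -R - 1 / 2 + 1 / 2 := by linarith
      have : (R : ℝ) * w < R * (-1) := by linarith
      exact lt_of_mul_lt_mul_left this hRp.le
    rw [abs_of_nonpos (by linarith : -1 - t ≤ 0), abs_of_nonpos (by linarith : w - t ≤ 0)]
    linarith
  · have hcast : ((Int.toNat (n + R) : ℕ) : ℝ) = n + R := by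
      have : ((Int.toNat (n + R) : ℕ) : ℤ) = n + R := Int.toNat_of_nonneg hpos
      exact_mod_cast this
    rcases le_or_gt (Int.toNat (n + R)) (2 * R) with hle | hgt
    · rw [min_eq_left hle, hcast]
      have e1 : ((n : ℝ) + R - R) / R = n / R := by ring
      rw [e1]
      have h3 : |(n : ℝ) / R - w| ≤ 1 / (2 * R) := by
        have e2 : (n : ℝ) / R - w = ((n : ℝ) - R * w) / R := by field_simp
        have e3 : (1 : ℝ) / (2 * R) = (1 / 2) / R := by field_simp
        rw [e2, e3, abs_div, abs_of_pos hRp]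
        apply div_le_div_of_nonneg_right _ hRp.le
        rw [abs_le]
        constructor <;> linarith
      calc |(n : ℝ) / R - t| = |((n : ℝ) / R - w) + (w - t)| := by ring_nf
        _ ≤ |(n : ℝ) / R - w| + |w - t| := abs_add_le _ _
        _ ≤ |w - t| + 1 / (2 * R) := by linarith
    · rw [min_eq_right hgt.le]
      have e1 : (((2 * R : ℕ) : ℝ) - R) / R = 1 := by push_cast; field_simp; ring
      rw [e1]
      have hnR : (2 * (R : ℝ)) + 1 ≤ n + R := by
        have : (2 * R + 1 : ℕ) ≤ Int.toNat (n + R) := hgt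
        have h5 : ((2 * R + 1 : ℕ) : ℝ) ≤ ((Int.toNat (n + R) : ℕ) : ℝ) := by exact_mod_cast this
        rw [hcast] at h5
        push_cast at h5
        linarith
      have hw : 1 < w := by
        have : (R : ℝ) * 1 < R * w := by linarith
        exact lt_of_mul_lt_mul_left this hRp.le
      rw [abs_of_nonneg (by linarith : 0 ≤ 1 - t), abs_of_nonneg (by linarith : 0 ≤ w - t)]
      linarith

end Vale.Agent.Lib.P309.Env
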