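import Vale.Agent.Lib.P309.Env.Volumetric
open MeasureTheory ProbabilityTheory Set Metric
open scoped ENNReal Pointwise
namespace Vale.Agent.Lib.P309.Env
variable {d M : ℕ}

/-- the action of a linear isometry on the sphere -/
noncomputable def sphMap (f : Vec d ≃ₗᵢ[ℝ] Vec d) (s : Sph d) : Sph d :=
  ⟨f s, by simp [f.norm_map]⟩

lemma sphMap_coe (f : Vec d ≃ₗᵢ[ℝ] Vec d) (s : Sph d) : (sphMap f s : Vec d) = f s := rfl

lemma measurable_sphMap (f : Vec d ≃ₗᵢ[ℝ] Vec d) : Measurable (sphMap f) := by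
  apply Measurable.subtype_mk
  exact f.continuous.measurable.comp measurable_subtype_coe

/-- the action as a measurable equivalence -/
noncomputable def sphEquiv (f : Vec d ≃ₗᵢ[ℝ] Vec d) : Sph d ≃ᵐ Sph d where
  toFun := sphMap f
  invFun := sphMap f.symm
  left_inv s := by ext1; simp [sphMap_coe]
  right_inv s := by ext1; simp [sphMap_coe]
  measurable_toFun := measurable_sphMap f
  measurable_invFun := measurable_sphMap f.symm

lemma unifSphere_preimage (f : Vec d ≃ₗᵢ[ℝ] Vec d) {A : Set (Sph d)} (hA : MeasurableSet A) :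
    unifSphere d (sphMap f ⁻¹' A) = unifSphere d A := by
  rw [unifSphere_eq, unifSphere_apply hA, unifSphere_apply (measurable_sphMap f hA)]
  congr 2
  have e : (Ioo (0 : ℝ) 1 • ((↑) '' (sphMap f ⁻¹' A) : Set (Vec d))) =
      f ⁻¹' (Ioo (0 : ℝ) 1 • ((↑) '' A : Set (Vec d))) := by
    ext v
    constructor
    · rintro ⟨r, hr, w, ⟨s, hs, rfl⟩, rfl⟩
      refine ⟨r, hr, f s, ⟨sphMap f s, hs, rfl⟩, ?_⟩
      simp
    · rintro ⟨r, hr, w, ⟨s, hs, rfl⟩, h⟩
      refine ⟨r, hr, f.symm s, ⟨sphMap f.symm s, ?_, rfl⟩, ?_⟩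
      · show sphMap f (sphMap f.symm s) ∈ A
        have : sphMap f (sphMap f.symm s) = s := by ext1; simp [sphMap_coe]
        rwa [this]
      · have h' : r • (s : Vec d) = f v := h
        show r • f.symm (s : Vec d) = v
        rw [← map_smul, h']; simp
  rw [e]
  exact (f.measurePreserving).measure_preimage_emb f.toHomeomorph.measurableEmbedding _

lemma measurePreserving_sphMap (f : Vec d ≃ₗᵢ[ℝ] Vec d) :
    MeasurePreserving (sphMap f) (unifSphere d) (unifSphere d) := by
  refine ⟨measurable_sphMap f, ?_⟩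
  ext A hA
  rw [Measure.map_apply (measurable_sphMap f) hA, unifSphere_preimage f hA]

end Vale.Agent.Lib.P309.Env
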