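import Vale.Agent.Lib.P309.Env.OneStep
open MeasureTheory ProbabilityTheory Set Metric
open scoped ENNReal Pointwise
namespace Vale.Agent.Lib.P309.Env
variable {d : ℕ}

/-- index vector of the origin -/
def k0 (R : ℕ) : Fin d → Fin (2 * R + 1) := fun _ => ⟨R, by omega⟩

lemma dec_k0 {R : ℕ} : dec R (k0 R : Fin d → Fin (2 * R + 1)) = 0 := by
  ext i
  simp [dec, k0, gval]

/-- the deterministic trajectory of grid indices -/
noncomputable def traj (R : ℕ) (s : Sph d) : (T : ℕ) → (Fin T → Vec d) → (Fin d → Fin (2 * R + 1))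
  | 0, _ => k0 R
  | T + 1, x => next R (traj R s T (Fin.init x)) (x (Fin.last T))
      (inner ℝ (x (Fin.last T)) (s : Vec d))

lemma traj_succ (R : ℕ) (s : Sph d) (T : ℕ) (x : Fin (T + 1) → Vec d) :
    traj R s (T + 1) x = next R (traj R s T (Fin.init x)) (x (Fin.last T))
      (inner ℝ (x (Fin.last T)) (s : Vec d)) := rfl

lemma measurable_next (R : ℕ) :
    Measurable (fun q : (Fin d → Fin (2 * R + 1)) × (Vec d × ℝ) => next R q.1 q.2.1 q.2.2) := by
  apply measurable_from_prod_countable_right
  intro k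
  apply measurable_pi_lambda
  intro i
  apply (measurable_idx R).comp
  unfold upd
  have h1 : Measurable (fun c : Vec d × ℝ =>
      dec R k + ((c.2 - inner ℝ c.1 (dec R k)) / ‖c.1‖ ^ 2) • c.1) := by fun_prop
  exact (EuclideanSpace.proj i : Vec d →L[ℝ] ℝ).continuous.measurable.comp h1

lemma measurable_traj (R : ℕ) (T : ℕ) :
    Measurable (fun p : (Fin T → Vec d) × Sph d => traj R p.2 T p.1) := by
  induction T with
  | zero => exact measurable_const
  | succ T ih =>
    have h1 : Measurable (fun p : (Fin (T + 1) → Vec d) × Sph d =>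
        ((Fin.init p.1 : Fin T → Vec d), p.2)) := by
      apply Measurable.prodMk _ measurable_snd
      apply measurable_pi_lambda
      intro j
      exact (measurable_pi_apply (Fin.castSucc j)).comp measurable_fst
    have h2 : Measurable (fun p : (Fin (T + 1) → Vec d) × Sph d => p.1 (Fin.last T)) :=
      (measurable_pi_apply (Fin.last T)).comp measurable_fst
    have h3 : Measurable (fun p : (Fin (T + 1) → Vec d) × Sph d =>
        (inner ℝ (p.1 (Fin.last T)) (p.2 : Vec d) : ℝ)) :=
      Measurable.inner h2 (measurable_subtype_coe.comp measurable_snd)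
    have h4 : Measurable (fun p : (Fin (T + 1) → Vec d) × Sph d =>
        traj R p.2 T (Fin.init p.1)) := ih.comp h1
    have h5 : Measurable (fun p : (Fin (T + 1) → Vec d) × Sph d =>
        (traj R p.2 T (Fin.init p.1), (p.1 (Fin.last T),
          (inner ℝ (p.1 (Fin.last T)) (p.2 : Vec d) : ℝ)))) := h4.prodMk (h2.prodMk h3)
    have h6 := Measurable.comp (measurable_next R) h5
    have h7 : (fun p : (Fin (T + 1) → Vec d) × Sph d => traj R p.2 (T + 1) p.1) =
        ((fun q : (Fin d → Fin (2 * R + 1)) × (Vec d × ℝ) => next R q.1 q.2.1 q.2.2) ∘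
          (fun p : (Fin (T + 1) → Vec d) × Sph d =>
        (traj R p.2 T (Fin.init p.1), (p.1 (Fin.last T),
          (inner ℝ (p.1 (Fin.last T)) (p.2 : Vec d) : ℝ))))) := by
      funext p
      rw [traj_succ]
      rfl
    rw [h7]
    exact h6

lemma lintegral_pi_succ {T : ℕ} (H : Vec d × (Fin T → Vec d) → ℝ≥0∞) :
    ∫⁻ x : Fin (T + 1) → Vec d, H (x (Fin.last T), Fin.init x)
        ∂(Measure.pi fun _ : Fin (T + 1) => stdGaussian (Vec d)) ≤
      ∫⁻ x' : Fin T → Vec d, ∫⁻ y, H (y, x') ∂(stdGaussian (Vec d))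
        ∂(Measure.pi fun _ : Fin T => stdGaussian (Vec d)) := by
  have mp := measurePreserving_piFinSuccAbove (fun _ : Fin (T + 1) => stdGaussian (Vec d))
    (Fin.last T)
  have e1 := mp.lintegral_comp_emb
    (MeasurableEquiv.piFinSuccAbove (fun _ : Fin (T + 1) => Vec d) (Fin.last T)).measurableEmbedding H
  have e2 : ∀ x : Fin (T + 1) → Vec d,
      (MeasurableEquiv.piFinSuccAbove (fun _ : Fin (T + 1) => Vec d) (Fin.last T)) x =
        (x (Fin.last T), Fin.init x) := by
    intro x
    ext1
    · rfl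
    · funext j
      simp [MeasurableEquiv.piFinSuccAbove, Fin.init]
  simp only [e2] at e1
  rw [e1, ← lintegral_prod_swap]
  exact lintegral_prod_le _

end Vale.Agent.Lib.P309.Env
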