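import Vale.Agent.Lib.P309.Env.Defs
import Vale.Agent.Lib.P309.Volumetric

open MeasureTheory ProbabilityTheory Set Metric
open scoped ENNReal Pointwise

namespace Vale.Agent.Lib.P309.Env

variable {d M : ℕ}

lemma unifSphere_eq (d : ℕ) : unifSphere d = Vale.Agent.Lib.P309.unifSphere d := rfl

instance unifSphere_prob [NeZero d] : IsProbabilityMeasure (unifSphere d) :=
  Vale.Agent.Lib.P309.unifSphere_prob

lemma Learner.advance_prob (L : Learner d M) (t : ℕ) (x : Vec d) (y : ℝ) (zb : Fin L.K × Bool) :
    IsProbabilityMeasure (L.advance t x y zb) := by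
  unfold Learner.advance
  split_ifs
  · infer_instance
  · have := L.step_markov t
    infer_instance

lemma Learner.stateLaw_prob (L : Learner d M) (s : Sph d) (T : ℕ) (x : Fin T → Vec d) :
    IsProbabilityMeasure (L.stateLaw s T x) := by
  induction T with
  | zero =>
    have := L.init_prob
    exact Measure.isProbabilityMeasure_map (Measurable.of_discrete).aemeasurable
  | succ T ih =>
    have := ih (Fin.init x)
    exact isProbabilityMeasure_bind (Measurable.of_discrete).aemeasurable
      (Filter.Eventually.of_forall (fun zb => L.advance_prob T _ _ zb))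

theorem Learner.successProb_le (hd : 1 ≤ d) (L : Learner d M) (T : ℕ) {ε : ℝ}
    (h0 : 0 < ε) (h1 : ε ≤ 1) :
    L.successProb T ε ≤ (2 : ℝ≥0∞) ^ M * ENNReal.ofReal (2 ^ d * ε ^ (d - 1)) := by
  have : NeZero d := ⟨by omega⟩
  have := L.out_markov
  set c : ℝ≥0∞ := ENNReal.ofReal (2 ^ d * ε ^ (d - 1)) with hc
  have hz : ∀ z : Fin L.K, ∫⁻ s, L.out z (Prod.mk s ⁻¹' closePairs d ε) ∂(unifSphere d) ≤ c := by
    intro z
    rw [← Measure.prod_apply (measurableSet_closePairs ε),
      Measure.prod_apply_symm (measurableSet_closePairs ε)]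
    calc ∫⁻ u, unifSphere d ((fun s => (s, u)) ⁻¹' closePairs d ε) ∂(L.out z)
        ≤ ∫⁻ _u, c ∂(L.out z) := by
          apply lintegral_mono
          intro u
          apply unifSphere_cap_le hd u h0 h1
          · exact measurable_prodMk_right (measurableSet_closePairs ε)
          · intro s hs
            exact chord_le_of_arccos_le u s hs
      _ = c := by simp
  have hinner : ∀ x : Fin T → Vec d,
      ∫⁻ s, ∫⁻ zb, L.out zb.1 {u : Sph d | Real.arccos (inner ℝ (u : Vec d) (s : Vec d)) ≤ ε}
      ∂(L.stateLaw s T x) ∂(unifSphere d) ≤ (2 : ℝ≥0∞) ^ M * c := by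
    intro x
    calc ∫⁻ s, ∫⁻ zb, L.out zb.1 {u : Sph d | Real.arccos (inner ℝ (u : Vec d) (s : Vec d)) ≤ ε}
          ∂(L.stateLaw s T x) ∂(unifSphere d)
        ≤ ∫⁻ s, ∑ z : Fin L.K, L.out z (Prod.mk s ⁻¹' closePairs d ε) ∂(unifSphere d) := by
          apply lintegral_mono
          intro s
          have := L.stateLaw_prob s T x
          calc ∫⁻ zb, L.out zb.1 {u : Sph d | Real.arccos (inner ℝ (u : Vec d) (s : Vec d)) ≤ ε}
                ∂(L.stateLaw s T x)
              ≤ ∫⁻ _zb, ∑ z : Fin L.K, L.out z (Prod.mk s ⁻¹' closePairs d ε)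
                  ∂(L.stateLaw s T x) := by
                apply lintegral_mono
                intro zb
                exact Finset.single_le_sum (f := fun z => L.out z (Prod.mk s ⁻¹' closePairs d ε))
                  (fun _ _ => zero_le) (Finset.mem_univ zb.1)
            _ = _ := by simp
      _ = ∑ z : Fin L.K, ∫⁻ s, L.out z (Prod.mk s ⁻¹' closePairs d ε) ∂(unifSphere d) := by
          rw [lintegral_finsetSum]
          intro z _
          exact measurable_measure_prodMk_left (measurableSet_closePairs ε)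
      _ ≤ ∑ _z : Fin L.K, c := Finset.sum_le_sum (fun z _ => hz z)
      _ = (L.K : ℝ≥0∞) * c := by simp
      _ ≤ (2 : ℝ≥0∞) ^ M * c := by
          gcongr
          exact_mod_cast L.K_le
  unfold Learner.successProb
  calc _ ≤ ∫⁻ x, ∫⁻ s, ∫⁻ zb, L.out zb.1
          {u : Sph d | Real.arccos (inner ℝ (u : Vec d) (s : Vec d)) ≤ ε}
          ∂(L.stateLaw s T x) ∂(unifSphere d) ∂(Measure.pi fun _ : Fin T => stdGaussian (Vec d)) :=
        lintegral_prod_le _
    _ ≤ ∫⁻ _x, (2 : ℝ≥0∞) ^ M * c ∂(Measure.pi fun _ : Fin T => stdGaussian (Vec d)) :=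
        lintegral_mono hinner
    _ = _ := by simp

end Vale.Agent.Lib.P309.Env
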